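import Vale.Agent.Lib.P200.All.Main

namespace Vale.Agent.Results.P200.D_all

open MvPolynomial Module Vale.Agent.Lib.P200 Vale.Agent.Lib.P200.Fam

/-- The Eisenbud-Green-Harris statement for three forms in three variables, for all degree types
`2 ≤ a ≤ b ≤ c`, over an arbitrary field: for every ideal `I` containing a regular sequence of forms
of degrees `a, b, c`, the sum of the subspaces `J_d` (spanned by `P_d` for
`P = (x_1^a, x_2^b, x_3^c)` and the `q_d = dim I_d - dim P_d` lexicographically greatest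
monomials of degree `d` outside `P`) is an ideal, and `dim J_d = dim I_d` for all `d`. -/
theorem result {K : Type*} [Field K] (a b c : ℕ) (ha : 2 ≤ a) (hab : a ≤ b) (hbc : b ≤ c)
    (f : Fin 3 → MvPolynomial (Fin 3) K)
    (hf : ∀ i, (f i).IsHomogeneous (![a, b, c] i))
    (hreg : ∀ (i : Fin 3) (u : MvPolynomial (Fin 3) K),
      f i * u ∈ Ideal.span (f '' {j | j < i}) → u ∈ Ideal.span (f '' {j | j < i}))
    (I : Ideal (MvPolynomial (Fin 3) K)) (hI : ∀ i, f i ∈ I) :
    (∃ 𝔍 : Ideal (MvPolynomial (Fin 3) K), ∀ g, g ∈ 𝔍 ↔ g ∈ ⨆ d, JE (a, b, c) I d) ∧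
      ∀ d, finrank K (JE (a, b, c) I d) = finrank K (degPart I d) :=
  Vale.Agent.Lib.P200.All.egh_all a b c ha hab hbc f hf hreg I hI

end Vale.Agent.Results.P200.D_all
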