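import Vale.Agent.Lib.P200.All.BettiD

namespace Vale.Agent.Results.P200.E_lpp

open MvPolynomial Module Vale.Agent.Lib.P200 Vale.Agent.Lib.P200.Fam Vale.Agent.Lib.P200.All

/-- The lex-plus-powers statement (and with it the Eisenbud-Green-Harris statement) for three forms
in three variables, for all degree types `2 ≤ a ≤ b ≤ c`, over an arbitrary field: for every ideal
`I` containing a regular sequence of forms of degrees `a, b, c`, the sum of the subspaces `J_d`
(spanned by `P_d` for `P = (x_1^a, x_2^b, x_3^c)` and the `q_d = dim I_d - dim P_d` lexicographically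
greatest monomials of degree `d` outside `P`) is an ideal `𝔍`, with `dim J_d = dim I_d` for all `d`,
and the graded Betti numbers `kb`, defined by Koszul homology, of `S/I` are at most those of `S/𝔍`. -/
theorem result {K : Type*} [Field K] (a b c : ℕ) (ha : 2 ≤ a) (hab : a ≤ b) (hbc : b ≤ c)
    (f : Fin 3 → MvPolynomial (Fin 3) K)
    (hf0 : (f 0).IsHomogeneous a) (hf1 : (f 1).IsHomogeneous b) (hf2 : (f 2).IsHomogeneous c)
    (hreg : ∀ (i : Fin 3) (u : MvPolynomial (Fin 3) K),
      f i * u ∈ Ideal.span (f '' {j | j < i}) → u ∈ Ideal.span (f '' {j | j < i}))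
    (I : Ideal (MvPolynomial (Fin 3) K)) (hI : ∀ i, f i ∈ I) :
    ∃ 𝔍 : Ideal (MvPolynomial (Fin 3) K), (∀ g, g ∈ 𝔍 ↔ g ∈ ⨆ d, JE (a, b, c) I d) ∧
      (∀ d, finrank K (JE (a, b, c) I d) = finrank K (degPart I d)) ∧
      ∀ p j, kb I p j ≤ kb 𝔍 p j :=
  lpp_all a b c ha hab hbc f (fun i => by
    fin_cases i
    · exact hf0
    · exact hf1
    · exact hf2) hreg I hI

end Vale.Agent.Results.P200.E_lpp
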