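import Vale.Agent.Lib.P200.N.Base

namespace Vale.Agent.Results.P200.F_allN

open MvPolynomial Module Vale.Agent.Lib.P200.N

/-- The Eisenbud-Green-Harris statement for three forms, in every number `n = m + 3 ≥ 3` of variables,
for all degree types `2 ≤ a 0 ≤ a 1 ≤ a 2`, over every field: for every ideal `I` of
`S = K[x_1, ..., x_n]` containing a regular sequence of forms of degrees `a 0, a 1, a 2`, the sum of
the subspaces `J_d` (spanned by `P_d` for `P = (x_1^(a 0), x_2^(a 1), x_3^(a 2))` and the `q_d` lexicographically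
greatest monomials of degree `d` outside `P`, where `q_d = dim I_d - dim P_d`) is an ideal, and
`dim J_d = dim I_d` for all `d`. -/
theorem result {K : Type*} [Field K] (m : ℕ) (a : Fin 3 → ℕ) (ha2 : 2 ≤ a 0) (ha : Monotone a)
    (f : Fin 3 → MvPolynomial (Fin (m + 3)) K) (hf : ∀ i, (f i).IsHomogeneous (a i))
    (hreg : ∀ (i : Fin 3) (u : MvPolynomial (Fin (m + 3)) K),
      f i * u ∈ Ideal.span (f '' {j | j < i}) → u ∈ Ideal.span (f '' {j | j < i}))
    (I : Ideal (MvPolynomial (Fin (m + 3)) K)) (hI : ∀ i, f i ∈ I) :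
    (∃ 𝔍 : Ideal (MvPolynomial (Fin (m + 3)) K), ∀ g, g ∈ 𝔍 ↔ g ∈ ⨆ d, JN (eT a (m + 3)) I d) ∧
      ∀ d, finrank K (JN (eT a (m + 3)) I d) = finrank K (degPartN I d) :=
  egh_three_all ha2 ha m f hf hreg I hI

end Vale.Agent.Results.P200.F_allN
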