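import Vale.Agent.Lib.P200.N.Tail2

namespace Vale.Agent.Results.P200.H_tailE

open MvPolynomial Module Vale.Agent.Lib.P200.N

/-- The Eisenbud-Green-Harris statement for `c ≥ 3` forms in `n ≥ c` variables, over every field, for all
degree types `2 ≤ a 0 ≤ ... ≤ a (c-1)` with `a i ≥ ∑_{j<i} (a j - 1)` for every `i ≥ 3` (entries are counted
from `0`: nothing is asked of the first three entries). For every ideal `I` of `S = K[x_1, ..., x_n]` containing
a regular sequence of forms of these degrees, the sum of the subspaces `J_d` (spanned by `P_d` for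
`P = (x_1^(a 0), ..., x_c^(a (c-1)))` and the `q_d` lexicographically greatest monomials of degree `d` outside
`P`, where `q_d = dim I_d - dim P_d`) is an ideal, and `dim J_d = dim I_d` for all `d`. -/
theorem result {K : Type*} [Field K] (c n : ℕ) (hc : 3 ≤ c) (hn : c ≤ n) (a : Fin c → ℕ) (ha2 : ∀ i, 2 ≤ a i)
    (ha : Monotone a)
    (htail : ∀ i : Fin c, 3 ≤ i.val → ∑ j ∈ Finset.univ.filter (fun j => j < i), (a j - 1) ≤ a i)
    (f : Fin c → MvPolynomial (Fin n) K) (hf : ∀ i, (f i).IsHomogeneous (a i))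
    (hreg : ∀ (i : Fin c) (u : MvPolynomial (Fin n) K),
      f i * u ∈ Ideal.span (f '' {j | j < i}) → u ∈ Ideal.span (f '' {j | j < i}))
    (I : Ideal (MvPolynomial (Fin n) K)) (hI : ∀ i, f i ∈ I) :
    (∃ 𝔍 : Ideal (MvPolynomial (Fin n) K), ∀ g, g ∈ 𝔍 ↔ g ∈ ⨆ d, JN (eT a n) I d) ∧
      ∀ d, finrank K (JN (eT a n) I d) = finrank K (degPartN I d) :=
  egh_tailE hc hn ha2 ha htail f hf hreg I hI

end Vale.Agent.Results.P200.H_tailE
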